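import Crest.Agent.Helper96.S0151.Defs
import Crest.Agent.Helper69.S0151.Neumann

/-!
# S0151, leaf A2 (FK): the Fuglede–Kadison identity along the path `1 - t B`  (helper99)

`fk_zero`: if `∑ ‖B ^ n‖ < ∞`, the vector functional `τ P = ⟪ξ, P ξ⟫` is a trace on the
`*`-algebra generated by `B` and `τ (B ^ n) = 0` for `n ≥ 1`, then
`τ (log ((1 - B)* (1 - B))) = 0`.
-/

set_option autoImplicit false

open scoped ComplexConjugate
open Polynomial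

namespace Crest.Agent.Helper99.S0151

open Crest.Agent.Helper69.S0151

variable {H : Type*} [NormedAddCommGroup H] [InnerProductSpace ℂ H] [CompleteSpace H]

/-- The vector functional `P ↦ ⟪ξ, P ξ⟫` as a continuous linear map. -/
noncomputable def tauL (ξ : H) : (H →L[ℂ] H) →L[ℂ] ℂ :=
  (innerSL ℂ ξ).comp (ContinuousLinearMap.apply ℂ H ξ)

theorem tauL_apply (ξ : H) (P : H →L[ℂ] H) : tauL ξ P = inner ℂ ξ (P ξ) := rfl

theorem norm_tauL_le (ξ : H) (P : H →L[ℂ] H) : ‖tauL ξ P‖ ≤ ‖P‖ * ‖ξ‖ ^ 2 := by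
  rw [tauL_apply]
  calc ‖inner ℂ ξ (P ξ)‖ ≤ ‖ξ‖ * ‖P ξ‖ := norm_inner_le_norm _ _
    _ ≤ ‖ξ‖ * (‖P‖ * ‖ξ‖) := by gcongr; exact P.le_opNorm ξ
    _ = ‖P‖ * ‖ξ‖ ^ 2 := by ring

theorem tauL_star (ξ : H) (P : H →L[ℂ] H) : tauL ξ (star P) = conj (tauL ξ P) := by
  rw [tauL_apply, tauL_apply, ContinuousLinearMap.star_eq_adjoint,
    ContinuousLinearMap.adjoint_inner_right, inner_conj_symm]

/-- The closed `*`-algebra generated by `B`. -/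
noncomputable abbrev clAlg (B : H →L[ℂ] H) : StarSubalgebra ℂ (H →L[ℂ] H) :=
  (StarAlgebra.adjoin ℂ {B}).topologicalClosure

theorem mem_clAlg_of_mem (B : H →L[ℂ] H) {P : H →L[ℂ] H} (hP : P ∈ StarAlgebra.adjoin ℂ {B}) :
    P ∈ clAlg B :=
  StarSubalgebra.le_topologicalClosure _ hP

theorem self_mem_adjoin (B : H →L[ℂ] H) : B ∈ StarAlgebra.adjoin ℂ {B} :=
  StarAlgebra.self_mem_adjoin_singleton ℂ B

/-- The trace property extends to the closure. -/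
theorem trace_clAlg (ξ : H) (B : H →L[ℂ] H)
    (htr : ∀ P ∈ StarAlgebra.adjoin ℂ {B}, ∀ Q ∈ StarAlgebra.adjoin ℂ {B},
      inner ℂ ξ ((P * Q) ξ) = inner ℂ ξ ((Q * P) ξ))
    {P Q : H →L[ℂ] H} (hP : P ∈ clAlg B) (hQ : Q ∈ clAlg B) :
    tauL ξ (P * Q) = tauL ξ (Q * P) := by
  have hcl : ∀ R : H →L[ℂ] H, R ∈ clAlg B ↔
      R ∈ closure ((StarAlgebra.adjoin ℂ {B} : StarSubalgebra ℂ (H →L[ℂ] H)) : Set (H →L[ℂ] H)) := by
    intro R
    rw [← StarSubalgebra.topologicalClosure_coe]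
    rfl
  -- first: Q in the algebra, P in the closure
  have h1 : ∀ Q ∈ StarAlgebra.adjoin ℂ {B}, ∀ P ∈ clAlg B, tauL ξ (P * Q) = tauL ξ (Q * P) := by
    intro Q hQ P hP
    have hclosed : IsClosed {P : H →L[ℂ] H | tauL ξ (P * Q) = tauL ξ (Q * P)} :=
      isClosed_eq (by fun_prop) (by fun_prop)
    have hsub : ((StarAlgebra.adjoin ℂ {B} : StarSubalgebra ℂ (H →L[ℂ] H)) : Set (H →L[ℂ] H)) ⊆
        {P : H →L[ℂ] H | tauL ξ (P * Q) = tauL ξ (Q * P)} := fun P hP => htr P hP Q hQ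
    exact closure_minimal hsub hclosed ((hcl P).1 hP)
  have hclosed : IsClosed {Q : H →L[ℂ] H | tauL ξ (P * Q) = tauL ξ (Q * P)} :=
    isClosed_eq (by fun_prop) (by fun_prop)
  have hsub : ((StarAlgebra.adjoin ℂ {B} : StarSubalgebra ℂ (H →L[ℂ] H)) : Set (H →L[ℂ] H)) ⊆
      {Q : H →L[ℂ] H | tauL ξ (P * Q) = tauL ξ (Q * P)} := fun Q hQ => h1 Q hQ P hP
  exact closure_minimal hsub hclosed ((hcl Q).1 hQ)


/-! ### The path `X t = 1 - t B` and its Neumann inverse -/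

/-- `X t = 1 - t B`. -/
noncomputable def Xf (B : H →L[ℂ] H) (t : ℝ) : H →L[ℂ] H := 1 - (t : ℂ) • B

/-- `star (X t) = 1 - t B*`. -/
noncomputable def Xs (B : H →L[ℂ] H) (t : ℝ) : H →L[ℂ] H := 1 - (t : ℂ) • star B

/-- `Y t = X t* X t`. -/
noncomputable def Yf (B : H →L[ℂ] H) (t : ℝ) : H →L[ℂ] H := Xs B t * Xf B t

/-- the derivative of `Y`. -/
noncomputable def Yd (B : H →L[ℂ] H) (t : ℝ) : H →L[ℂ] H :=
  (-star B) * Xf B t + Xs B t * (-B)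

/-- the Neumann series `∑ (t B)^n`. -/
noncomputable def Nf (B : H →L[ℂ] H) (t : ℝ) : H →L[ℂ] H := ∑' n : ℕ, ((t : ℂ) • B) ^ n

theorem star_Xf (B : H →L[ℂ] H) (t : ℝ) : star (Xf B t) = Xs B t := by
  simp [Xf, Xs, star_sub, star_smul]

theorem star_Xs (B : H →L[ℂ] H) (t : ℝ) : star (Xs B t) = Xf B t := by
  simp [Xf, Xs, star_sub, star_smul]

theorem Yf_eq (B : H →L[ℂ] H) (t : ℝ) : Yf B t = star (Xf B t) * Xf B t := by
  rw [star_Xf]; rfl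

theorem isSelfAdjoint_Yf (B : H →L[ℂ] H) (t : ℝ) : IsSelfAdjoint (Yf B t) := by
  rw [Yf_eq]; exact IsSelfAdjoint.star_mul_self _

theorem norm_smul_pow_le (B : H →L[ℂ] H) {t : ℝ} (ht : |t| ≤ 1) (n : ℕ) :
    ‖((t : ℂ) • B) ^ n‖ ≤ ‖B ^ n‖ := by
  rw [_root_.smul_pow, norm_smul, norm_pow, Complex.norm_real, Real.norm_eq_abs]
  have : |t| ^ n ≤ 1 := pow_le_one₀ (abs_nonneg t) ht
  calc |t| ^ n * ‖B ^ n‖ ≤ 1 * ‖B ^ n‖ := by gcongr
    _ = ‖B ^ n‖ := one_mul _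

theorem summable_smul_pow (B : H →L[ℂ] H) (hB : Summable fun n : ℕ => ‖B ^ n‖)
    {t : ℝ} (ht : |t| ≤ 1) : Summable fun n : ℕ => ‖((t : ℂ) • B) ^ n‖ :=
  Summable.of_nonneg_of_le (fun n => norm_nonneg _) (fun n => norm_smul_pow_le B ht n) hB

theorem Xf_mul_Nf (B : H →L[ℂ] H) (hB : Summable fun n : ℕ => ‖B ^ n‖)
    {t : ℝ} (ht : |t| ≤ 1) : Xf B t * Nf B t = 1 :=
  (one_sub_mul_tsum ((t : ℂ) • B) (summable_smul_pow B hB ht)).1

theorem Nf_mul_Xf (B : H →L[ℂ] H) (hB : Summable fun n : ℕ => ‖B ^ n‖)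
    {t : ℝ} (ht : |t| ≤ 1) : Nf B t * Xf B t = 1 :=
  (one_sub_mul_tsum ((t : ℂ) • B) (summable_smul_pow B hB ht)).2

theorem star_Nf_mul_Xs (B : H →L[ℂ] H) (hB : Summable fun n : ℕ => ‖B ^ n‖)
    {t : ℝ} (ht : |t| ≤ 1) : star (Nf B t) * Xs B t = 1 := by
  have := congrArg star (Xf_mul_Nf B hB ht)
  rwa [star_mul, star_one, star_Xf] at this

theorem Xs_mul_star_Nf (B : H →L[ℂ] H) (hB : Summable fun n : ℕ => ‖B ^ n‖)
    {t : ℝ} (ht : |t| ≤ 1) : Xs B t * star (Nf B t) = 1 := by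
  have := congrArg star (Nf_mul_Xf B hB ht)
  rwa [star_mul, star_one, star_Xf] at this

theorem Xf_mem (B : H →L[ℂ] H) (t : ℝ) : Xf B t ∈ StarAlgebra.adjoin ℂ {B} :=
  sub_mem (one_mem _) (SMulMemClass.smul_mem _ (self_mem_adjoin B))

theorem Xs_mem (B : H →L[ℂ] H) (t : ℝ) : Xs B t ∈ StarAlgebra.adjoin ℂ {B} :=
  sub_mem (one_mem _) (SMulMemClass.smul_mem _ (star_mem (self_mem_adjoin B)))

theorem Yf_mem (B : H →L[ℂ] H) (t : ℝ) : Yf B t ∈ StarAlgebra.adjoin ℂ {B} :=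
  mul_mem (Xs_mem B t) (Xf_mem B t)

theorem Yd_mem (B : H →L[ℂ] H) (t : ℝ) : Yd B t ∈ StarAlgebra.adjoin ℂ {B} :=
  add_mem (mul_mem (neg_mem (star_mem (self_mem_adjoin B))) (Xf_mem B t))
    (mul_mem (Xs_mem B t) (neg_mem (self_mem_adjoin B)))

theorem Nf_mem (B : H →L[ℂ] H) (hB : Summable fun n : ℕ => ‖B ^ n‖)
    {t : ℝ} (ht : |t| ≤ 1) : Nf B t ∈ clAlg B := by
  have hs : Summable fun n : ℕ => ((t : ℂ) • B) ^ n := (summable_smul_pow B hB ht).of_norm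
  have hcl : IsClosed ((clAlg B : StarSubalgebra ℂ (H →L[ℂ] H)) : Set (H →L[ℂ] H)) :=
    StarSubalgebra.isClosed_topologicalClosure _
  refine hcl.mem_of_tendsto hs.hasSum.tendsto_sum_nat (Filter.Eventually.of_forall fun n => ?_)
  refine sum_mem fun i _ => ?_
  exact mem_clAlg_of_mem B (pow_mem (SMulMemClass.smul_mem _ (self_mem_adjoin B)) i)

theorem tauL_Nf_mul (ξ : H) (B : H →L[ℂ] H) (hB : Summable fun n : ℕ => ‖B ^ n‖)
    (hmom : ∀ n : ℕ, 1 ≤ n → inner ℂ ξ ((B ^ n) ξ) = 0)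
    {t : ℝ} (ht : |t| ≤ 1) : tauL ξ (Nf B t * B) = 0 := by
  have hs : Summable fun n : ℕ => ((t : ℂ) • B) ^ n := (summable_smul_pow B hB ht).of_norm
  rw [Nf, ← hs.tsum_mul_right, ContinuousLinearMap.map_tsum _ (hs.mul_right B)]
  have : ∀ n : ℕ, tauL ξ (((t : ℂ) • B) ^ n * B) = 0 := by
    intro n
    rw [_root_.smul_pow, smul_mul_assoc, map_smul, ← pow_succ, tauL_apply, hmom (n + 1) (by omega),
      smul_zero]
  simp only [this, tsum_zero]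

theorem tauL_mul_Nf (ξ : H) (B : H →L[ℂ] H) (hB : Summable fun n : ℕ => ‖B ^ n‖)
    (hmom : ∀ n : ℕ, 1 ≤ n → inner ℂ ξ ((B ^ n) ξ) = 0)
    {t : ℝ} (ht : |t| ≤ 1) : tauL ξ (B * Nf B t) = 0 := by
  have hs : Summable fun n : ℕ => ((t : ℂ) • B) ^ n := (summable_smul_pow B hB ht).of_norm
  rw [Nf, ← hs.tsum_mul_left, ContinuousLinearMap.map_tsum _ (hs.mul_left B)]
  have : ∀ n : ℕ, tauL ξ (B * ((t : ℂ) • B) ^ n) = 0 := by
    intro n
    rw [_root_.smul_pow, mul_smul_comm, map_smul, ← pow_succ', tauL_apply, hmom (n + 1) (by omega),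
      smul_zero]
  simp only [this, tsum_zero]

/-- The key vanishing: `τ (Y⁻¹ Y') = 0`, with `Y⁻¹ = N N*`. -/
theorem tauL_inv_mul_Yd (ξ : H) (B : H →L[ℂ] H) (hB : Summable fun n : ℕ => ‖B ^ n‖)
    (htr : ∀ P ∈ StarAlgebra.adjoin ℂ {B}, ∀ Q ∈ StarAlgebra.adjoin ℂ {B},
      inner ℂ ξ ((P * Q) ξ) = inner ℂ ξ ((Q * P) ξ))
    (hmom : ∀ n : ℕ, 1 ≤ n → inner ℂ ξ ((B ^ n) ξ) = 0)
    {t : ℝ} (ht : |t| ≤ 1) : tauL ξ (Nf B t * star (Nf B t) * Yd B t) = 0 := by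
  have hN := Nf_mem B hB ht
  have hNs : star (Nf B t) ∈ clAlg B := star_mem hN
  have hBm : B ∈ clAlg B := mem_clAlg_of_mem B (self_mem_adjoin B)
  have hBs : star B ∈ clAlg B := star_mem hBm
  have hX : Xf B t ∈ clAlg B := mem_clAlg_of_mem B (Xf_mem B t)
  -- first term
  have e1 : tauL ξ (Nf B t * star (Nf B t) * (star B * Xf B t)) = 0 := by
    have h := trace_clAlg ξ B htr (P := Nf B t * star (Nf B t) * star B) (Q := Xf B t)
      (mul_mem (mul_mem hN hNs) hBs) hX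
    have e : Nf B t * star (Nf B t) * (star B * Xf B t)
        = Nf B t * star (Nf B t) * star B * Xf B t := by simp only [mul_assoc]
    rw [e, h]
    have e' : Xf B t * (Nf B t * star (Nf B t) * star B) = star (B * Nf B t) := by
      rw [star_mul, ← mul_assoc, ← mul_assoc, Xf_mul_Nf B hB ht, one_mul]
    rw [e', tauL_star, tauL_mul_Nf ξ B hB hmom ht, map_zero]
  have e2 : tauL ξ (Nf B t * star (Nf B t) * (Xs B t * B)) = 0 := by
    have e : Nf B t * star (Nf B t) * (Xs B t * B) = Nf B t * B := by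
      rw [mul_assoc, ← mul_assoc (star (Nf B t)), star_Nf_mul_Xs B hB ht, one_mul]
    rw [e, tauL_Nf_mul ξ B hB hmom ht]
  have : Nf B t * star (Nf B t) * Yd B t
      = -(Nf B t * star (Nf B t) * (star B * Xf B t))
        - Nf B t * star (Nf B t) * (Xs B t * B) := by
    simp only [Yd, mul_add, mul_neg, neg_mul]
    abel
  rw [this, map_sub, map_neg, e1, e2]
  simp


/-! ### Derivatives along the path -/

theorem hasDerivAt_Xf (B : H →L[ℂ] H) (t : ℝ) : HasDerivAt (Xf B) (-B) t := by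
  have h : HasDerivAt (fun y : ℝ => y • B) ((1 : ℝ) • B) t := (hasDerivAt_id t).smul_const B
  have h2 := h.const_sub (1 : H →L[ℂ] H)
  rw [one_smul] at h2
  have e : Xf B = fun y : ℝ => (1 : H →L[ℂ] H) - y • B := by
    funext y; simp [Xf]
  rw [e]; exact h2

theorem hasDerivAt_Xs (B : H →L[ℂ] H) (t : ℝ) : HasDerivAt (Xs B) (-star B) t := by
  have h : HasDerivAt (fun y : ℝ => y • star B) ((1 : ℝ) • star B) t :=
    (hasDerivAt_id t).smul_const (star B)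
  have h2 := h.const_sub (1 : H →L[ℂ] H)
  rw [one_smul] at h2
  have e : Xs B = fun y : ℝ => (1 : H →L[ℂ] H) - y • star B := by
    funext y; simp [Xs]
  rw [e]; exact h2

theorem hasDerivAt_Yf (B : H →L[ℂ] H) (t : ℝ) : HasDerivAt (Yf B) (Yd B t) t :=
  (hasDerivAt_Xs B t).mul (hasDerivAt_Xf B t)

/-- derivative of `Y ^ n` and its trace against powers of `Y`. -/
theorem pow_deriv (ξ : H) (B : H →L[ℂ] H)
    (htr : ∀ P ∈ StarAlgebra.adjoin ℂ {B}, ∀ Q ∈ StarAlgebra.adjoin ℂ {B},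
      inner ℂ ξ ((P * Q) ξ) = inner ℂ ξ ((Q * P) ξ)) (t : ℝ) (n : ℕ) :
    ∃ D ∈ StarAlgebra.adjoin ℂ {B}, HasDerivAt (fun s => Yf B s ^ n) D t ∧
      ∀ j : ℕ, tauL ξ (D * Yf B t ^ j) = (n : ℂ) * tauL ξ (Yf B t ^ (n - 1 + j) * Yd B t) := by
  induction n with
  | zero =>
    refine ⟨0, zero_mem _, ?_, fun j => by simp⟩
    simp only [pow_zero]
    exact hasDerivAt_const t (1 : H →L[ℂ] H)
  | succ n ih =>
    obtain ⟨D, hDm, hD, hDt⟩ := ih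
    refine ⟨D * Yf B t + Yf B t ^ n * Yd B t,
      add_mem (mul_mem hDm (Yf_mem B t)) (mul_mem (pow_mem (Yf_mem B t) n) (Yd_mem B t)), ?_, ?_⟩
    · have e : (fun s => Yf B s ^ (n + 1)) = fun s => Yf B s ^ n * Yf B s := by
        funext s; rw [pow_succ]
      rw [e]
      exact hD.mul (hasDerivAt_Yf B t)
    · intro j
      have e1 : (D * Yf B t + Yf B t ^ n * Yd B t) * Yf B t ^ j
          = D * Yf B t ^ (j + 1) + (Yf B t ^ n * Yd B t) * Yf B t ^ j := by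
        rw [add_mul, mul_assoc, ← pow_succ']
      have e2 : tauL ξ ((Yf B t ^ n * Yd B t) * Yf B t ^ j)
          = tauL ξ (Yf B t ^ j * (Yf B t ^ n * Yd B t)) :=
        htr _ (mul_mem (pow_mem (Yf_mem B t) n) (Yd_mem B t)) _ (pow_mem (Yf_mem B t) j)
      have e3 : Yf B t ^ j * (Yf B t ^ n * Yd B t) = Yf B t ^ (n + j) * Yd B t := by
        rw [← mul_assoc, ← pow_add, add_comm]
      have e4 : (n : ℂ) * tauL ξ (Yf B t ^ (n - 1 + (j + 1)) * Yd B t)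
          = (n : ℂ) * tauL ξ (Yf B t ^ (n + j) * Yd B t) := by
        rcases n with _ | m
        · simp
        · have : m + 1 - 1 + (j + 1) = m + 1 + j := by omega
          rw [this]
      rw [e1, map_add, hDt (j + 1), e2, e3, e4]
      have : n + 1 - 1 + j = n + j := by omega
      rw [this]
      push_cast
      ring

theorem hasDerivAt_tau_pow (ξ : H) (B : H →L[ℂ] H)
    (htr : ∀ P ∈ StarAlgebra.adjoin ℂ {B}, ∀ Q ∈ StarAlgebra.adjoin ℂ {B},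
      inner ℂ ξ ((P * Q) ξ) = inner ℂ ξ ((Q * P) ξ)) (t : ℝ) (n : ℕ) :
    HasDerivAt (fun s : ℝ => tauL ξ (Yf B s ^ n))
      ((n : ℂ) * tauL ξ (Yf B t ^ (n - 1) * Yd B t)) t := by
  obtain ⟨D, -, hD, hDt⟩ := pow_deriv ξ B htr t n
  have h := ((tauL ξ).restrictScalars ℝ).hasFDerivAt.comp_hasDerivAt t hD
  have e := hDt 0
  rw [pow_zero, mul_one, add_zero] at e
  rw [← e]
  exact h

/-! ### The antiderivative polynomial -/

/-- An antiderivative of the polynomial `q`, vanishing at `1`. -/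
noncomputable def pI (q : ℝ[X]) : ℝ[X] :=
  ∑ k ∈ Finset.range (q.natDegree + 1), monomial (k + 1) (q.coeff k / ((k : ℝ) + 1))
    - C (∑ k ∈ Finset.range (q.natDegree + 1), q.coeff k / ((k : ℝ) + 1))

theorem derivative_pI (q : ℝ[X]) : derivative (pI q) = q := by
  rw [pI, derivative_sub, derivative_C, sub_zero, derivative_sum]
  conv_rhs => rw [q.as_sum_range]
  refine Finset.sum_congr rfl fun k _ => ?_
  rw [derivative_monomial]
  have : (k : ℝ) + 1 ≠ 0 := by positivity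
  congr 1
  push_cast
  field_simp

theorem eval_one_pI (q : ℝ[X]) : (pI q).eval 1 = 0 := by
  simp [pI, eval_finsetSum]

theorem aeval_pI (q : ℝ[X]) (Y : H →L[ℂ] H) :
    aeval Y (pI q) = ∑ k ∈ Finset.range (q.natDegree + 1),
        (q.coeff k / ((k : ℝ) + 1)) • Y ^ (k + 1)
      - (∑ k ∈ Finset.range (q.natDegree + 1), q.coeff k / ((k : ℝ) + 1)) • (1 : H →L[ℂ] H) := by
  simp only [pI, map_sub, map_sum, aeval_monomial, aeval_C, Algebra.smul_def, mul_one]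

theorem tauL_real_smul (ξ : H) (r : ℝ) (Z : H →L[ℂ] H) :
    tauL ξ (r • Z) = (r : ℂ) * tauL ξ Z := by
  rw [← Complex.coe_smul, map_smul, smul_eq_mul]

theorem hasDerivAt_G (ξ : H) (B : H →L[ℂ] H)
    (htr : ∀ P ∈ StarAlgebra.adjoin ℂ {B}, ∀ Q ∈ StarAlgebra.adjoin ℂ {B},
      inner ℂ ξ ((P * Q) ξ) = inner ℂ ξ ((Q * P) ξ)) (q : ℝ[X]) (t : ℝ) :
    HasDerivAt (fun s : ℝ => tauL ξ (aeval (Yf B s) (pI q)))
      (tauL ξ (aeval (Yf B t) q * Yd B t)) t := by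
  have e : (fun s : ℝ => tauL ξ (aeval (Yf B s) (pI q)))
      = fun s : ℝ => ∑ k ∈ Finset.range (q.natDegree + 1),
          ((q.coeff k / ((k : ℝ) + 1) : ℝ) : ℂ) * tauL ξ (Yf B s ^ (k + 1))
        - ((∑ k ∈ Finset.range (q.natDegree + 1), q.coeff k / ((k : ℝ) + 1) : ℝ) : ℂ)
            * tauL ξ 1 := by
    funext s
    rw [aeval_pI, map_sub, map_sum, tauL_real_smul]
    congr 1
    exact Finset.sum_congr rfl fun k _ => tauL_real_smul ξ _ _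
  have e' : tauL ξ (aeval (Yf B t) q * Yd B t)
      = ∑ k ∈ Finset.range (q.natDegree + 1),
          ((q.coeff k / ((k : ℝ) + 1) : ℝ) : ℂ)
            * (((k + 1 : ℕ) : ℂ) * tauL ξ (Yf B t ^ (k + 1 - 1) * Yd B t)) := by
    rw [aeval_eq_sum_range, Finset.sum_mul, map_sum]
    refine Finset.sum_congr rfl fun k _ => ?_
    rw [smul_mul_assoc, tauL_real_smul, Nat.add_sub_cancel]
    have : (k : ℂ) + 1 ≠ 0 := by
      have h : ((k : ℝ) : ℂ) + 1 ≠ 0 := by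
        have : (0 : ℝ) < (k : ℝ) + 1 := by positivity
        exact_mod_cast this.ne'
      simpa using h
    push_cast
    field_simp
  rw [e, e']
  have hsum : HasDerivAt (fun s : ℝ => ∑ k ∈ Finset.range (q.natDegree + 1),
          ((q.coeff k / ((k : ℝ) + 1) : ℝ) : ℂ) * tauL ξ (Yf B s ^ (k + 1)))
      (∑ k ∈ Finset.range (q.natDegree + 1),
          ((q.coeff k / ((k : ℝ) + 1) : ℝ) : ℂ)
            * (((k + 1 : ℕ) : ℂ) * tauL ξ (Yf B t ^ (k + 1 - 1) * Yd B t))) t :=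
    HasDerivAt.fun_sum fun k _ => (hasDerivAt_tau_pow ξ B htr t (k + 1)).const_mul _
  exact hsum.sub_const _


/-! ### Norm and spectral bounds -/

theorem norm_Xf_le (B : H →L[ℂ] H) {t : ℝ} (ht : |t| ≤ 1) : ‖Xf B t‖ ≤ 1 + ‖B‖ := by
  have h1 : ‖(1 : H →L[ℂ] H)‖ ≤ 1 := ContinuousLinearMap.norm_id_le
  have h2 : ‖(t : ℂ) • B‖ ≤ ‖B‖ := by
    rw [norm_smul, Complex.norm_real, Real.norm_eq_abs]
    calc |t| * ‖B‖ ≤ 1 * ‖B‖ := by gcongr
      _ = ‖B‖ := one_mul _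
  calc ‖Xf B t‖ ≤ ‖(1 : H →L[ℂ] H)‖ + ‖(t : ℂ) • B‖ := norm_sub_le _ _
    _ ≤ 1 + ‖B‖ := add_le_add h1 h2

theorem norm_Xs_le (B : H →L[ℂ] H) {t : ℝ} (ht : |t| ≤ 1) : ‖Xs B t‖ ≤ 1 + ‖B‖ := by
  rw [← star_Xf, norm_star]; exact norm_Xf_le B ht

theorem norm_Yd_le (B : H →L[ℂ] H) {t : ℝ} (ht : |t| ≤ 1) :
    ‖Yd B t‖ ≤ 2 * ‖B‖ * (1 + ‖B‖) := by
  have h1 : ‖(-star B) * Xf B t‖ ≤ ‖B‖ * (1 + ‖B‖) := by
    calc ‖(-star B) * Xf B t‖ ≤ ‖-star B‖ * ‖Xf B t‖ := norm_mul_le _ _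
      _ = ‖B‖ * ‖Xf B t‖ := by rw [norm_neg, norm_star]
      _ ≤ ‖B‖ * (1 + ‖B‖) := by gcongr; exact norm_Xf_le B ht
  have h2 : ‖Xs B t * (-B)‖ ≤ (1 + ‖B‖) * ‖B‖ := by
    calc ‖Xs B t * (-B)‖ ≤ ‖Xs B t‖ * ‖-B‖ := norm_mul_le _ _
      _ = ‖Xs B t‖ * ‖B‖ := by rw [norm_neg]
      _ ≤ (1 + ‖B‖) * ‖B‖ := by gcongr; exact norm_Xs_le B ht
  calc ‖Yd B t‖ ≤ ‖(-star B) * Xf B t‖ + ‖Xs B t * (-B)‖ := norm_add_le _ _
    _ ≤ ‖B‖ * (1 + ‖B‖) + (1 + ‖B‖) * ‖B‖ := add_le_add h1 h2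
    _ = 2 * ‖B‖ * (1 + ‖B‖) := by ring

theorem spectrum_Yf_subset (B : H →L[ℂ] H) (hB : Summable fun n : ℕ => ‖B ^ n‖)
    {t : ℝ} (ht : |t| ≤ 1) :
    spectrum ℝ (Yf B t) ⊆
      Set.Icc ((1 / ((∑' n : ℕ, ‖B ^ n‖) + 1)) ^ 2) ((1 + ‖B‖) ^ 2) := by
  have hM : 0 ≤ ∑' n : ℕ, ‖B ^ n‖ := tsum_nonneg fun _ => norm_nonneg _
  have hα : 0 ≤ 1 / ((∑' n : ℕ, ‖B ^ n‖) + 1) := by positivity
  have hA : ∀ v : H, 1 / ((∑' n : ℕ, ‖B ^ n‖) + 1) * ‖v‖ ≤ ‖Xf B t v‖ := by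
    intro v
    have h1 := norm_le_tsum_mul_norm_one_sub ((t : ℂ) • B) (summable_smul_pow B hB ht) v
    have h2 : ∑' n : ℕ, ‖((t : ℂ) • B) ^ n‖ ≤ ∑' n : ℕ, ‖B ^ n‖ :=
      (summable_smul_pow B hB ht).tsum_le_tsum (fun n => norm_smul_pow_le B ht n) hB
    have h3 : ‖v‖ ≤ ((∑' n : ℕ, ‖B ^ n‖) + 1) * ‖Xf B t v‖ := by
      calc ‖v‖ ≤ (∑' n : ℕ, ‖((t : ℂ) • B) ^ n‖) * ‖(1 - (t : ℂ) • B) v‖ := h1
        _ ≤ ((∑' n : ℕ, ‖B ^ n‖) + 1) * ‖Xf B t v‖ := by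
          apply mul_le_mul _ le_rfl (norm_nonneg _) (by positivity)
          linarith
    rw [div_mul_eq_mul_div, one_mul, div_le_iff₀ (by positivity)]
    linarith [mul_comm ((∑' n : ℕ, ‖B ^ n‖) + 1) ‖Xf B t v‖]
  have h := spectrum_star_mul_self_subset (Xf B t) _ hα hA
  rw [← Yf_eq] at h
  refine h.trans (Set.Icc_subset_Icc le_rfl ?_)
  exact pow_le_pow_left₀ (norm_nonneg _) (norm_Xf_le B ht) 2

theorem Yf_mul_inv (B : H →L[ℂ] H) (hB : Summable fun n : ℕ => ‖B ^ n‖)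
    {t : ℝ} (ht : |t| ≤ 1) : Yf B t * (Nf B t * star (Nf B t)) = 1 := by
  rw [Yf, mul_assoc, ← mul_assoc (Xf B t), Xf_mul_Nf B hB ht, one_mul, Xs_mul_star_Nf B hB ht]

theorem inv_mul_Yf (B : H →L[ℂ] H) (hB : Summable fun n : ℕ => ‖B ^ n‖)
    {t : ℝ} (ht : |t| ≤ 1) : Nf B t * star (Nf B t) * Yf B t = 1 := by
  rw [Yf, mul_assoc, ← mul_assoc (star (Nf B t)), star_Nf_mul_Xs B hB ht, one_mul,
    Nf_mul_Xf B hB ht]

theorem cfc_inv_Yf (B : H →L[ℂ] H) (hB : Summable fun n : ℕ => ‖B ^ n‖)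
    {t : ℝ} (ht : |t| ≤ 1) :
    cfc (fun x : ℝ => x⁻¹) (Yf B t) = Nf B t * star (Nf B t) := by
  let u : (H →L[ℂ] H)ˣ := ⟨Yf B t, Nf B t * star (Nf B t), Yf_mul_inv B hB ht, inv_mul_Yf B hB ht⟩
  exact cfc_inv_id (R := ℝ) u (isSelfAdjoint_Yf B t)

theorem zero_notMem_spectrum_Yf (B : H →L[ℂ] H) (hB : Summable fun n : ℕ => ‖B ^ n‖)
    {t : ℝ} (ht : |t| ≤ 1) : (0 : ℝ) ∉ spectrum ℝ (Yf B t) := by
  intro h0
  have hs := spectrum_Yf_subset B hB ht h0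
  have hM : 0 ≤ ∑' n : ℕ, ‖B ^ n‖ := tsum_nonneg fun _ => norm_nonneg _
  have : 0 < (1 / ((∑' n : ℕ, ‖B ^ n‖) + 1)) ^ 2 := by positivity
  linarith [hs.1]

theorem norm_tauL_aeval_mul_Yd_le (ξ : H) (B : H →L[ℂ] H) (hB : Summable fun n : ℕ => ‖B ^ n‖)
    (htr : ∀ P ∈ StarAlgebra.adjoin ℂ {B}, ∀ Q ∈ StarAlgebra.adjoin ℂ {B},
      inner ℂ ξ ((P * Q) ξ) = inner ℂ ξ ((Q * P) ξ))
    (hmom : ∀ n : ℕ, 1 ≤ n → inner ℂ ξ ((B ^ n) ξ) = 0)
    {t : ℝ} (ht : |t| ≤ 1) (q : ℝ[X]) (η : ℝ) (hη : 0 ≤ η)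
    (hq : ∀ x ∈ spectrum ℝ (Yf B t), |q.eval x - x⁻¹| ≤ η) :
    ‖tauL ξ (aeval (Yf B t) q * Yd B t)‖ ≤ η * ‖Yd B t‖ * ‖ξ‖ ^ 2 := by
  have hsa := isSelfAdjoint_Yf B t
  have hcont : ContinuousOn (fun x : ℝ => x⁻¹) (spectrum ℝ (Yf B t)) :=
    continuousOn_inv₀.mono fun x hx => by
      rintro rfl
      exact zero_notMem_spectrum_Yf B hB ht hx
  have e1 : aeval (Yf B t) q - Nf B t * star (Nf B t)
      = cfc (fun x : ℝ => q.eval x - x⁻¹) (Yf B t) := by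
    rw [cfc_sub (fun x : ℝ => q.eval x) (fun x : ℝ => x⁻¹) (Yf B t)
      q.continuous.continuousOn hcont, cfc_polynomial q (Yf B t) hsa, cfc_inv_Yf B hB ht]
  have e2 : ‖aeval (Yf B t) q - Nf B t * star (Nf B t)‖ ≤ η := by
    rw [e1]
    exact norm_cfc_le hη fun x hx => by
      rw [Real.norm_eq_abs]; exact hq x hx
  have e3 : tauL ξ (aeval (Yf B t) q * Yd B t)
      = tauL ξ ((aeval (Yf B t) q - Nf B t * star (Nf B t)) * Yd B t) := by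
    rw [sub_mul, map_sub, tauL_inv_mul_Yd ξ B hB htr hmom ht, sub_zero]
  rw [e3]
  calc ‖tauL ξ ((aeval (Yf B t) q - Nf B t * star (Nf B t)) * Yd B t)‖
      ≤ ‖(aeval (Yf B t) q - Nf B t * star (Nf B t)) * Yd B t‖ * ‖ξ‖ ^ 2 := norm_tauL_le _ _
    _ ≤ (η * ‖Yd B t‖) * ‖ξ‖ ^ 2 := by
      gcongr
      exact (norm_mul_le _ _).trans (by gcongr)

/-! ### The antiderivative approximates the logarithm -/

theorem abs_log_sub_pI_le (q : ℝ[X]) {a b η : ℝ} (ha : 0 < a) (ha1 : a ≤ 1) (hb1 : 1 ≤ b)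
    (hq : ∀ x ∈ Set.Icc a b, |q.eval x - x⁻¹| ≤ η) {x : ℝ} (hx : x ∈ Set.Icc a b) :
    |Real.log x - (pI q).eval x| ≤ η * b := by
  have h1mem : (1 : ℝ) ∈ Set.Icc a b := ⟨ha1, hb1⟩
  have hη : 0 ≤ η := (abs_nonneg _).trans (hq 1 h1mem)
  have hderiv : ∀ y ∈ Set.Icc a b,
      HasDerivWithinAt (fun y : ℝ => (pI q).eval y - Real.log y) (q.eval y - y⁻¹)
        (Set.Icc a b) y := by
    intro y hy
    have hy0 : y ≠ 0 := (ha.trans_le hy.1).ne'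
    have h1 := (pI q).hasDerivAt y
    rw [derivative_pI] at h1
    exact (h1.sub (Real.hasDerivAt_log hy0)).hasDerivWithinAt
  have hbound : ∀ y ∈ Set.Icc a b, ‖q.eval y - y⁻¹‖ ≤ η := fun y hy => by
    rw [Real.norm_eq_abs]; exact hq y hy
  have h := (convex_Icc a b).norm_image_sub_le_of_norm_hasDerivWithin_le hderiv hbound h1mem hx
  simp only [eval_one_pI, Real.log_one, sub_zero, Real.norm_eq_abs] at h
  have hx1 : |x - 1| ≤ b := by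
    rw [abs_le]
    constructor <;> linarith [hx.1, hx.2]
  calc |Real.log x - (pI q).eval x| = |(pI q).eval x - Real.log x| := abs_sub_comm _ _
    _ ≤ η * |x - 1| := h
    _ ≤ η * b := by gcongr

/-! ### The Fuglede–Kadison identity -/

/-- Leaf A2 (FK): the Fuglede–Kadison identity along the path `1 - t B`. -/
theorem fk_zero (ξ : H) (B : H →L[ℂ] H) (hB : Summable fun n : ℕ => ‖B ^ n‖)
    (htr : ∀ P ∈ StarAlgebra.adjoin ℂ {B}, ∀ Q ∈ StarAlgebra.adjoin ℂ {B},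
      inner ℂ ξ ((P * Q) ξ) = inner ℂ ξ ((Q * P) ξ))
    (hmom : ∀ n : ℕ, 1 ≤ n → inner ℂ ξ ((B ^ n) ξ) = 0) :
    inner ℂ ξ (cfc Real.log (star (1 - B) * (1 - B)) ξ) = 0 := by
  have hM : 0 ≤ ∑' n : ℕ, ‖B ^ n‖ := tsum_nonneg fun _ => norm_nonneg _
  set a : ℝ := (1 / ((∑' n : ℕ, ‖B ^ n‖) + 1)) ^ 2 with ha_def
  set b : ℝ := (1 + ‖B‖) ^ 2 with hb_def
  have ha : 0 < a := by positivity
  have ha1 : a ≤ 1 := by
    have h1 : 1 / ((∑' n : ℕ, ‖B ^ n‖) + 1) ≤ 1 := by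
      rw [div_le_one (by positivity)]; linarith
    have h0 : 0 ≤ 1 / ((∑' n : ℕ, ‖B ^ n‖) + 1) := by positivity
    calc a ≤ 1 ^ 2 := pow_le_pow_left₀ h0 h1 2
      _ = 1 := one_pow 2
  have hb1 : 1 ≤ b := by
    have : (1 : ℝ) ≤ 1 + ‖B‖ := by linarith [norm_nonneg B]
    calc (1 : ℝ) = 1 ^ 2 := (one_pow 2).symm
      _ ≤ b := pow_le_pow_left₀ zero_le_one this 2
  have hspec : ∀ t : ℝ, |t| ≤ 1 → spectrum ℝ (Yf B t) ⊆ Set.Icc a b :=
    fun t ht => spectrum_Yf_subset B hB ht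
  have hY1 : Yf B 1 = star (1 - B) * (1 - B) := by
    rw [Yf_eq]; simp [Xf]
  rw [← hY1]
  change tauL ξ (cfc Real.log (Yf B 1)) = 0
  set K : ℝ := (b + 2 * ‖B‖ * (1 + ‖B‖)) * ‖ξ‖ ^ 2 with hK_def
  have hK : 0 ≤ K := by positivity
  have key : ∀ η : ℝ, 0 < η → ‖tauL ξ (cfc Real.log (Yf B 1))‖ ≤ η * K := by
    intro η hη
    have hcinv : ContinuousOn (fun x : ℝ => x⁻¹) (Set.Icc a b) :=
      continuousOn_inv₀.mono fun x hx => by
        rintro rfl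
        linarith [hx.1]
    obtain ⟨q, hq⟩ := exists_polynomial_near_of_continuousOn a b (fun x : ℝ => x⁻¹) hcinv η hη
    have hq' : ∀ x ∈ Set.Icc a b, |q.eval x - x⁻¹| ≤ η := fun x hx => (hq x hx).le
    have hG : ‖tauL ξ (aeval (Yf B 1) (pI q)) - tauL ξ (aeval (Yf B 0) (pI q))‖
        ≤ η * (2 * ‖B‖ * (1 + ‖B‖)) * ‖ξ‖ ^ 2 := by
      refine norm_image_sub_le_of_norm_deriv_le_segment_01'
        (f := fun s : ℝ => tauL ξ (aeval (Yf B s) (pI q)))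
        (f' := fun s : ℝ => tauL ξ (aeval (Yf B s) q * Yd B s))
        (fun s _ => (hasDerivAt_G ξ B htr q s).hasDerivWithinAt) ?_
      intro s hs
      have hs1 : |s| ≤ 1 := abs_le.2 ⟨by linarith [hs.1], hs.2.le⟩
      calc ‖tauL ξ (aeval (Yf B s) q * Yd B s)‖
          ≤ η * ‖Yd B s‖ * ‖ξ‖ ^ 2 :=
            norm_tauL_aeval_mul_Yd_le ξ B hB htr hmom hs1 q η hη.le
              (fun x hx => hq' x (hspec s hs1 hx))
        _ ≤ η * (2 * ‖B‖ * (1 + ‖B‖)) * ‖ξ‖ ^ 2 := by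
            gcongr
            exact norm_Yd_le B hs1
    have hG0 : tauL ξ (aeval (Yf B 0) (pI q)) = 0 := by
      have : Yf B 0 = 1 := by simp [Yf, Xf, Xs]
      rw [this, ← map_one (algebraMap ℝ (H →L[ℂ] H)), aeval_algebraMap_apply_eq_algebraMap_eval,
        eval_one_pI, map_zero, map_zero]
    have hclog : ContinuousOn Real.log (spectrum ℝ (Yf B 1)) :=
      Real.continuousOn_log.mono fun x hx => by
        rintro rfl
        exact zero_notMem_spectrum_Yf B hB (by simp) hx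
    have hlog : ‖cfc Real.log (Yf B 1) - aeval (Yf B 1) (pI q)‖ ≤ η * b := by
      rw [← cfc_polynomial (pI q) (Yf B 1) (isSelfAdjoint_Yf B 1),
        ← cfc_sub Real.log (fun x : ℝ => (pI q).eval x) (Yf B 1) hclog
          (pI q).continuous.continuousOn]
      refine norm_cfc_le (by positivity) fun x hx => ?_
      rw [Real.norm_eq_abs]
      exact abs_log_sub_pI_le q ha ha1 hb1 hq' (hspec 1 (by simp) hx)
    have e : tauL ξ (cfc Real.log (Yf B 1))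
        = tauL ξ (cfc Real.log (Yf B 1) - aeval (Yf B 1) (pI q))
          + (tauL ξ (aeval (Yf B 1) (pI q)) - tauL ξ (aeval (Yf B 0) (pI q))) := by
      rw [hG0, sub_zero, map_sub]; ring
    rw [e]
    calc ‖tauL ξ (cfc Real.log (Yf B 1) - aeval (Yf B 1) (pI q))
          + (tauL ξ (aeval (Yf B 1) (pI q)) - tauL ξ (aeval (Yf B 0) (pI q)))‖
        ≤ ‖tauL ξ (cfc Real.log (Yf B 1) - aeval (Yf B 1) (pI q))‖
          + ‖tauL ξ (aeval (Yf B 1) (pI q)) - tauL ξ (aeval (Yf B 0) (pI q))‖ := norm_add_le _ _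
      _ ≤ η * b * ‖ξ‖ ^ 2 + η * (2 * ‖B‖ * (1 + ‖B‖)) * ‖ξ‖ ^ 2 := by
          refine add_le_add ((norm_tauL_le _ _).trans ?_) hG
          gcongr
      _ = η * K := by rw [hK_def]; ring
  by_contra hne
  have hpos : 0 < ‖tauL ξ (cfc Real.log (Yf B 1))‖ := norm_pos_iff.2 hne
  have h := key (‖tauL ξ (cfc Real.log (Yf B 1))‖ / (2 * (K + 1))) (by positivity)
  have h2 : ‖tauL ξ (cfc Real.log (Yf B 1))‖ / (2 * (K + 1)) * K
      ≤ ‖tauL ξ (cfc Real.log (Yf B 1))‖ / 2 := by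
    rw [div_mul_eq_mul_div, div_le_div_iff₀ (by positivity) (by positivity)]
    nlinarith
  linarith

end Crest.Agent.Helper99.S0151
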